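import Vale.Agent.P252.Defs
import Mathlib.Analysis.SpecialFunctions.Log.Basic
import Mathlib.Analysis.SpecialFunctions.Pow.Real

/-! Definitions for the integral inequality (*). `S` is the set of 'wedge' coordinates, `k = #S`. -/

namespace Vale.Agent.P252.H888

variable {n : ℕ}

/-- `ℓ = log det D²u`. -/
noncomputable def ell (u : EuclideanSpace ℝ (Fin n) → ℝ) : EuclideanSpace ℝ (Fin n) → ℝ :=
  fun x => Real.log (hess u x).det

/-- the pairing `⟨ξ, ζ⟩ = u^{ij} ξ_i ζ_j` at `x`. -/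
noncomputable def ip (u : EuclideanSpace ℝ (Fin n) → ℝ) (x : EuclideanSpace ℝ (Fin n))
    (ξ ζ : Fin n → ℝ) : ℝ :=
  ∑ i, ∑ j, (hess u x)⁻¹ i j * ξ i * ζ j

/-- `B = u - ∑_{i ∈ S} x_i u_i`. -/
noncomputable def Bf (S : Finset (Fin n)) (u : EuclideanSpace ℝ (Fin n) → ℝ) :
    EuclideanSpace ℝ (Fin n) → ℝ :=
  fun x => u x - ∑ i ∈ S, x i * pd i u x

/-- `ã_i = u_i` for `i ∉ S`, `0` for `i ∈ S`. -/
noncomputable def at' (S : Finset (Fin n)) (u : EuclideanSpace ℝ (Fin n) → ℝ)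
    (x : EuclideanSpace ℝ (Fin n)) : Fin n → ℝ :=
  fun i => if i ∈ S then 0 else pd i u x

/-- `b̃_i = -∑_{m ∈ S} x_m u_{mi}`. -/
noncomputable def bt' (S : Finset (Fin n)) (u : EuclideanSpace ℝ (Fin n) → ℝ)
    (x : EuclideanSpace ℝ (Fin n)) : Fin n → ℝ :=
  fun i => -∑ m ∈ S, x m * hess u x m i

/-- `a = ã / B`. -/
noncomputable def av (S : Finset (Fin n)) (u : EuclideanSpace ℝ (Fin n) → ℝ)
    (x : EuclideanSpace ℝ (Fin n)) : Fin n → ℝ :=
  fun i => at' S u x i / Bf S u x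

/-- `b = b̃ / B - ∇ℓ / (n+2)`. -/
noncomputable def bv (S : Finset (Fin n)) (u : EuclideanSpace ℝ (Fin n) → ℝ)
    (x : EuclideanSpace ℝ (Fin n)) : Fin n → ℝ :=
  fun i => bt' S u x i / Bf S u x - pd i (ell u) x / ((n : ℝ) + 2)

/-- the weight `√D B^p`. -/
noncomputable def wt (S : Finset (Fin n)) (u : EuclideanSpace ℝ (Fin n) → ℝ) (p : ℝ) :
    EuclideanSpace ℝ (Fin n) → ℝ :=
  fun x => Real.sqrt (hess u x).det * Bf S u x ^ p

/-- the vector field `Y^i = √D B^{-(n-2)/2} u^{ij} (t a_j + b_j)`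
`(= √D B^{-n/2} u^{ij} (t ã_j + b̃_j - B ℓ_j/(n+2)))`. -/
noncomputable def Yf (S : Finset (Fin n)) (t : ℝ) (u : EuclideanSpace ℝ (Fin n) → ℝ) (i : Fin n) :
    EuclideanSpace ℝ (Fin n) → ℝ :=
  fun x => wt S u (-((n : ℝ) - 2) / 2) x *
    ∑ j, (hess u x)⁻¹ i j * (t * av S u x j + bv S u x j)

/-- the quadratic form `(nt/2)|a|² + (n/2)|b|² - ((t(n+2)-(n-2))/2)⟨a,b⟩`. -/
noncomputable def qform (S : Finset (Fin n)) (t : ℝ) (u : EuclideanSpace ℝ (Fin n) → ℝ)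
    (x : EuclideanSpace ℝ (Fin n)) : ℝ :=
  (n * t / 2) * ip u x (av S u x) (av S u x) + (n / 2 : ℝ) * ip u x (bv S u x) (bv S u x)
    - ((t * (n + 2) - (n - 2)) / 2) * ip u x (av S u x) (bv S u x)

/-- The exact divergence identity (statement). -/
def StarIdentityAt (S : Finset (Fin n)) (t : ℝ) (u : EuclideanSpace ℝ (Fin n) → ℝ)
    (x : EuclideanSpace ℝ (Fin n)) : Prop :=
  ∑ i, pd i (Yf S t u i) x =
    wt S u (-(n : ℝ) / 2) x * (t * (n - S.card) - S.card)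
      - wt S u (-((n : ℝ) - 2) / 2) x * qform S t u x

end Vale.Agent.P252.H888
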