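import Mathlib
import Vale.Agent.P252.Defs

open MeasureTheory Filter Topology

namespace Vale.Agent.P252.H888

variable {n : ℕ}

/-- a product of a function with compact support and a function continuous near that support -/
theorem integrable_mul_of_tsupport {η a b : EuclideanSpace ℝ (Fin n) → ℝ}
    (hc : HasCompactSupport η) (ha : ∀ x ∈ tsupport η, ContinuousAt a x)
    (hb : ∀ x ∈ tsupport η, ContinuousAt b x) (hz : ∀ x, x ∉ tsupport η → a x = 0) :
    Integrable (fun x => a x * b x) := by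
  have hsub : tsupport (fun x => a x * b x) ⊆ tsupport η := by
    apply closure_minimal _ (isClosed_tsupport η)
    intro x hx
    by_contra h
    exact hx (by simp [hz x h])
  have hcont : Continuous (fun x => a x * b x) :=
    continuous_of_tsupport fun x hx => (ha x (hsub hx)).mul (hb x (hsub hx))
  exact hcont.integrable_of_hasCompactSupport
    (hc.isCompact.of_isClosed_subset (isClosed_tsupport _) hsub)

/-- Integration by parts: `∫ η² div Y = -∫ 2 η ⟨∇η, Y⟩`. -/
theorem integral_sq_mul_div {η : EuclideanSpace ℝ (Fin n) → ℝ}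
    {Y : Fin n → EuclideanSpace ℝ (Fin n) → ℝ} (hη : ContDiff ℝ 1 η)
    (hc : HasCompactSupport η) (hY : ∀ i, ∀ x ∈ tsupport η, ContDiffAt ℝ 1 (Y i) x) :
    ∫ x, η x ^ 2 * ∑ i, pd i (Y i) x = -∫ x, 2 * η x * ∑ i, pd i η x * Y i x := by
  have hη2 : ContDiff ℝ 1 (fun x => η x ^ 2) := hη.pow 2
  have hsub : tsupport (fun x => η x ^ 2) ⊆ tsupport η := by
    apply closure_minimal _ (isClosed_tsupport η)
    intro x hx
    apply subset_tsupport
    intro h
    exact hx (by simp [h])
  have hz0 : ∀ x, x ∉ tsupport η → η x = 0 := fun x hx => image_eq_zero_of_notMem_tsupport hx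
  have hz1 : ∀ (i : Fin n) x, x ∉ tsupport η → pd i η x = 0 := by
    intro i x hx
    have : fderiv ℝ η x = 0 := by
      by_contra h
      exact hx (tsupport_fderiv_subset ℝ (subset_tsupport _ h))
    simp [pd, this]
  have hpd2 : ∀ (i : Fin n) x, fderiv ℝ (fun x => η x ^ 2) x (EuclideanSpace.single i 1)
      = 2 * η x * pd i η x := by
    intro i x
    have hd : DifferentiableAt ℝ η x := (hη.differentiable one_ne_zero) x
    have := (hd.hasFDerivAt.pow 2).fderiv
    rw [this]
    simp [pd]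
  have hηc : Continuous η := hη.continuous
  have hpdc : ∀ i : Fin n, Continuous (pd i η) := fun i =>
    (hη.continuous_fderiv one_ne_zero).clm_apply continuous_const
  have hYc : ∀ i, ∀ x ∈ tsupport η, ContinuousAt (Y i) x := fun i x hx =>
    (hY i x hx).continuousAt
  have hYd : ∀ i, ∀ x ∈ tsupport η, ContinuousAt (fun x => pd i (Y i) x) x := by
    intro i x hx
    have h1 : ContinuousAt (fderiv ℝ (Y i)) x := (hY i x hx).continuousAt_fderiv one_ne_zero
    exact h1.clm_apply continuousAt_const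
  have hI1 : ∀ i : Fin n, Integrable (fun x => η x ^ 2 * pd i (Y i) x) := fun i =>
    integrable_mul_of_tsupport hc (fun x _ => (hηc.pow 2).continuousAt) (hYd i)
      (fun x hx => by simp [hz0 x hx])
  have hI2 : ∀ i : Fin n, Integrable (fun x => 2 * η x * pd i η x * Y i x) := fun i =>
    integrable_mul_of_tsupport hc
      (fun x _ => ((continuous_const.mul hηc).mul (hpdc i)).continuousAt) (hYc i)
      (fun x hx => by simp [hz0 x hx])
  have hI3 : ∀ i : Fin n, Integrable (fun x => η x ^ 2 * Y i x) := fun i =>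
    integrable_mul_of_tsupport hc (fun x _ => (hηc.pow 2).continuousAt) (hYc i)
      (fun x hx => by simp [hz0 x hx])
  have key : ∀ i : Fin n, ∫ x, η x ^ 2 * pd i (Y i) x
      = -∫ x, 2 * η x * pd i η x * Y i x := by
    intro i
    have := integral_mul_fderiv_eq_neg_fderiv_mul_of_integrable
      (μ := (volume : Measure (EuclideanSpace ℝ (Fin n))))
      (f := fun x => η x ^ 2) (g := Y i) (v := EuclideanSpace.single i (1 : ℝ))
      (by simpa only [hpd2] using hI2 i) (hI1 i) (hI3 i)
      (fun x _ => (hη2.differentiable one_ne_zero) x)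
      (fun x hx => (hY i x (hsub hx)).differentiableAt one_ne_zero)
    simp only [hpd2] at this
    exact this
  calc ∫ x, η x ^ 2 * ∑ i, pd i (Y i) x
      = ∫ x, ∑ i, η x ^ 2 * pd i (Y i) x := by simp_rw [Finset.mul_sum]
    _ = ∑ i, ∫ x, η x ^ 2 * pd i (Y i) x := integral_finsetSum _ fun i _ => hI1 i
    _ = ∑ i, -∫ x, 2 * η x * pd i η x * Y i x := Finset.sum_congr rfl fun i _ => key i
    _ = -∑ i, ∫ x, 2 * η x * pd i η x * Y i x := by rw [Finset.sum_neg_distrib]
    _ = -∫ x, ∑ i, 2 * η x * pd i η x * Y i x := by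
        rw [integral_finsetSum _ fun i _ => hI2 i]
    _ = -∫ x, 2 * η x * ∑ i, pd i η x * Y i x := by
        congr 1
        refine integral_congr_ae (Eventually.of_forall fun x => ?_)
        simp only [Finset.mul_sum, mul_assoc]

/-- **Caccioppoli inequality from a pointwise divergence inequality.** If on the support of the
cut-off `-div Y ≥ P + Q` with `P, Q ≥ 0`, and `⟨ξ, Y⟩² ≤ K Q W(ξ)` for `ξ = ∇η`, then
`∫ η² P + ½ ∫ η² Q ≤ 2 K ∫ W(∇η)`. -/
theorem caccioppoli {η : EuclideanSpace ℝ (Fin n) → ℝ}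
    {Y : Fin n → EuclideanSpace ℝ (Fin n) → ℝ} {P Q W : EuclideanSpace ℝ (Fin n) → ℝ} {K : ℝ}
    (hK : 0 ≤ K)
    (hη : ContDiff ℝ 1 η) (hc : HasCompactSupport η)
    (hY : ∀ i, ∀ x ∈ tsupport η, ContDiffAt ℝ 1 (Y i) x)
    (hPc : ∀ x ∈ tsupport η, ContinuousAt P x) (hQc : ∀ x ∈ tsupport η, ContinuousAt Q x)
    (hWi : Integrable W)
    (hQ : ∀ x ∈ tsupport η, 0 ≤ Q x) (hW : ∀ x, 0 ≤ W x)
    (hdiv : ∀ x ∈ tsupport η, ∑ i, pd i (Y i) x ≤ -(P x + Q x))
    (hcs : ∀ x ∈ tsupport η, (∑ i, pd i η x * Y i x) ^ 2 ≤ K * Q x * W x) :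
    (∫ x, η x ^ 2 * P x) + (∫ x, η x ^ 2 * Q x) / 2 ≤ 2 * K * ∫ x, W x := by
  have hηc : Continuous η := hη.continuous
  have hpdc : ∀ i : Fin n, Continuous (pd i η) := fun i =>
    (hη.continuous_fderiv one_ne_zero).clm_apply continuous_const
  have hz0 : ∀ x, x ∉ tsupport η → η x = 0 := fun x hx => image_eq_zero_of_notMem_tsupport hx
  have hYc : ∀ i, ∀ x ∈ tsupport η, ContinuousAt (Y i) x := fun i x hx =>
    (hY i x hx).continuousAt
  have hYd : ∀ i, ∀ x ∈ tsupport η, ContinuousAt (fun x => pd i (Y i) x) x := by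
    intro i x hx
    have h1 : ContinuousAt (fderiv ℝ (Y i)) x := (hY i x hx).continuousAt_fderiv one_ne_zero
    exact h1.clm_apply continuousAt_const
  have hsumd : ∀ x ∈ tsupport η, ContinuousAt (fun x => ∑ i, pd i (Y i) x) x := fun x hx =>
    tendsto_finsetSum _ fun i _ => hYd i x hx
  have hsumη : ∀ x ∈ tsupport η, ContinuousAt (fun x => ∑ i, pd i η x * Y i x) x := fun x hx =>
    tendsto_finsetSum _ fun i _ => (hpdc i).continuousAt.mul (hYc i x hx)
  have hIP : Integrable (fun x => η x ^ 2 * P x) :=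
    integrable_mul_of_tsupport hc (fun x _ => (hηc.pow 2).continuousAt) hPc
      (fun x hx => by simp [hz0 x hx])
  have hIQ : Integrable (fun x => η x ^ 2 * Q x) :=
    integrable_mul_of_tsupport hc (fun x _ => (hηc.pow 2).continuousAt) hQc
      (fun x hx => by simp [hz0 x hx])
  have hId : Integrable (fun x => η x ^ 2 * ∑ i, pd i (Y i) x) :=
    integrable_mul_of_tsupport hc (fun x _ => (hηc.pow 2).continuousAt) hsumd
      (fun x hx => by simp [hz0 x hx])
  have hIη : Integrable (fun x => 2 * η x * ∑ i, pd i η x * Y i x) :=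
    integrable_mul_of_tsupport hc (fun x _ => (continuous_const.mul hηc).continuousAt) hsumη
      (fun x hx => by simp [hz0 x hx])
  have h1 : (∫ x, η x ^ 2 * P x) + (∫ x, η x ^ 2 * Q x)
      ≤ ∫ x, 2 * η x * ∑ i, pd i η x * Y i x := by
    have := integral_sq_mul_div hη hc hY
    have h2 : ∫ x, 2 * η x * ∑ i, pd i η x * Y i x = -∫ x, η x ^ 2 * ∑ i, pd i (Y i) x := by
      rw [this]; ring
    rw [h2, ← integral_neg, ← integral_add hIP hIQ]
    refine integral_mono (hIP.add hIQ) hId.neg fun x => ?_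
    show η x ^ 2 * P x + η x ^ 2 * Q x ≤ -(η x ^ 2 * ∑ i, pd i (Y i) x)
    by_cases hx : x ∈ tsupport η
    · have := mul_le_mul_of_nonneg_left (hdiv x hx) (sq_nonneg (η x))
      linarith
    · simp [hz0 x hx]
  have h3 : ∫ x, 2 * η x * ∑ i, pd i η x * Y i x
      ≤ ∫ x, (η x ^ 2 * Q x * (1 / 2) + 2 * K * W x) := by
    refine integral_mono hIη ((hIQ.mul_const _).add (hWi.const_mul _)) fun x => ?_
    show 2 * η x * ∑ i, pd i η x * Y i x ≤ η x ^ 2 * Q x * (1 / 2) + 2 * K * W x
    by_cases hx : x ∈ tsupport η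
    · set s := ∑ i, pd i η x * Y i x
      have hs : s ^ 2 ≤ K * Q x * W x := hcs x hx
      have hA : 0 ≤ η x ^ 2 * Q x * (1 / 2) + 2 * K * W x := by
        have := hQ x hx
        have := hW x
        positivity
      apply le_of_sq_le_sq ?_ hA |> fun h => h
      nlinarith [sq_nonneg (η x ^ 2 * Q x * (1 / 2) - 2 * K * W x),
        mul_le_mul_of_nonneg_left hs (sq_nonneg (η x))]
    · simp only [hz0 x hx]
      have := hW x
      simp only [mul_zero, zero_mul, ne_eq, OfNat.ofNat_ne_zero, not_false_eq_true, zero_pow]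
      positivity
  rw [integral_add (hIQ.mul_const _) (hWi.const_mul _), integral_mul_const,
    integral_const_mul] at h3
  linarith

end Vale.Agent.P252.H888
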