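import Mathlib
import Vale.Agent.P252.H888.StarDefs
import Vale.Agent.P252.H888.Star1

open MeasureTheory Filter Topology
open scoped ContDiff

namespace Vale.Agent.P252.H888

variable {n : ℕ}

/-! ### smoothness of the ingredients -/

theorem contDiffAt_pd {f : EuclideanSpace ℝ (Fin n) → ℝ} {x : EuclideanSpace ℝ (Fin n)}
    (hf : ContDiffAt ℝ ∞ f x) (i : Fin n) : ContDiffAt ℝ ∞ (pd i f) x :=
  (hf.fderiv_right (m := ∞) le_rfl).clm_apply contDiffAt_const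

theorem contDiffAt_hess {f : EuclideanSpace ℝ (Fin n) → ℝ} {x : EuclideanSpace ℝ (Fin n)}
    (hf : ContDiffAt ℝ ∞ f x) (i j : Fin n) : ContDiffAt ℝ ∞ (fun y => hess f y i j) x :=
  contDiffAt_pd (contDiffAt_pd hf j) i

theorem contDiffAt_det {m : ℕ} {A : EuclideanSpace ℝ (Fin n) → Matrix (Fin m) (Fin m) ℝ}
    {x : EuclideanSpace ℝ (Fin n)} (hA : ∀ i j, ContDiffAt ℝ ∞ (fun y => A y i j) x) :
    ContDiffAt ℝ ∞ (fun y => (A y).det) x := by
  simp only [Matrix.det_apply]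
  refine ContDiffAt.sum fun σ _ => ?_
  exact (contDiffAt_prod fun i _ => hA _ _).const_smul _

theorem contDiffAt_hess_det {f : EuclideanSpace ℝ (Fin n) → ℝ} {x : EuclideanSpace ℝ (Fin n)}
    (hf : ContDiffAt ℝ ∞ f x) : ContDiffAt ℝ ∞ (fun y => (hess f y).det) x :=
  contDiffAt_det fun i j => contDiffAt_hess hf i j

theorem contDiffAt_hess_inv {f : EuclideanSpace ℝ (Fin n) → ℝ} {x : EuclideanSpace ℝ (Fin n)}
    (hf : ContDiffAt ℝ ∞ f x) (hx : (hess f x).det ≠ 0) (i j : Fin n) :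
    ContDiffAt ℝ ∞ (fun y => (hess f y)⁻¹ i j) x := by
  have h1 : (fun y => (hess f y)⁻¹ i j)
      = fun y => ((hess f y).det)⁻¹ * ((hess f y).updateRow j (Pi.single i 1)).det := by
    funext y
    rw [Matrix.inv_def, Matrix.smul_apply, Matrix.adjugate_apply, Ring.inverse_eq_inv',
      smul_eq_mul]
  rw [h1]
  refine ((contDiffAt_hess_det hf).inv hx).mul (contDiffAt_det fun a b => ?_)
  by_cases hab : a = j
  · subst hab
    simp only [Matrix.updateRow_self]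
    exact contDiffAt_const
  · simp only [Matrix.updateRow_ne hab]
    exact contDiffAt_hess hf a b

theorem contDiffAt_ell {u : EuclideanSpace ℝ (Fin n) → ℝ} {x : EuclideanSpace ℝ (Fin n)}
    (hu : ContDiffAt ℝ ∞ u x) (hx : (hess u x).det ≠ 0) : ContDiffAt ℝ ∞ (ell u) x :=
  (contDiffAt_hess_det hu).log hx

theorem contDiffAt_coord (i : Fin n) (x : EuclideanSpace ℝ (Fin n)) :
    ContDiffAt ℝ ∞ (fun y : EuclideanSpace ℝ (Fin n) => y i) x :=
  (EuclideanSpace.proj i : EuclideanSpace ℝ (Fin n) →L[ℝ] ℝ).contDiff.contDiffAt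

theorem contDiffAt_Bf {S : Finset (Fin n)} {u : EuclideanSpace ℝ (Fin n) → ℝ}
    {x : EuclideanSpace ℝ (Fin n)} (hu : ContDiffAt ℝ ∞ u x) : ContDiffAt ℝ ∞ (Bf S u) x :=
  hu.sub (ContDiffAt.sum fun i _ => (contDiffAt_coord i x).mul (contDiffAt_pd hu i))

theorem contDiffAt_at' {S : Finset (Fin n)} {u : EuclideanSpace ℝ (Fin n) → ℝ}
    {x : EuclideanSpace ℝ (Fin n)} (hu : ContDiffAt ℝ ∞ u x) (i : Fin n) :
    ContDiffAt ℝ ∞ (fun y => at' S u y i) x := by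
  unfold at'
  by_cases h : i ∈ S
  · simp only [h, if_true]; exact contDiffAt_const
  · simp only [h, if_false]; exact contDiffAt_pd hu i

theorem contDiffAt_bt' {S : Finset (Fin n)} {u : EuclideanSpace ℝ (Fin n) → ℝ}
    {x : EuclideanSpace ℝ (Fin n)} (hu : ContDiffAt ℝ ∞ u x) (i : Fin n) :
    ContDiffAt ℝ ∞ (fun y => bt' S u y i) x :=
  (ContDiffAt.sum fun m _ => (contDiffAt_coord m x).mul (contDiffAt_hess hu m i)).neg

theorem contDiffAt_av {S : Finset (Fin n)} {u : EuclideanSpace ℝ (Fin n) → ℝ}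
    {x : EuclideanSpace ℝ (Fin n)} (hu : ContDiffAt ℝ ∞ u x) (hB : Bf S u x ≠ 0) (i : Fin n) :
    ContDiffAt ℝ ∞ (fun y => av S u y i) x :=
  (contDiffAt_at' hu i).div (contDiffAt_Bf hu) hB

theorem contDiffAt_bv {S : Finset (Fin n)} {u : EuclideanSpace ℝ (Fin n) → ℝ}
    {x : EuclideanSpace ℝ (Fin n)} (hu : ContDiffAt ℝ ∞ u x) (hx : (hess u x).det ≠ 0)
    (hB : Bf S u x ≠ 0) (i : Fin n) :
    ContDiffAt ℝ ∞ (fun y => bv S u y i) x :=
  ((contDiffAt_bt' hu i).div (contDiffAt_Bf hu) hB).sub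
    ((contDiffAt_pd (contDiffAt_ell hu hx) i).div_const _)

theorem contDiffAt_wt {S : Finset (Fin n)} {u : EuclideanSpace ℝ (Fin n) → ℝ} {p : ℝ}
    {x : EuclideanSpace ℝ (Fin n)} (hu : ContDiffAt ℝ ∞ u x) (hx : (hess u x).det ≠ 0)
    (hB : Bf S u x ≠ 0) : ContDiffAt ℝ ∞ (wt S u p) x :=
  ((contDiffAt_hess_det hu).sqrt hx).mul ((contDiffAt_Bf hu).rpow_const_of_ne hB)

theorem contDiffAt_Yf {S : Finset (Fin n)} {t : ℝ} {u : EuclideanSpace ℝ (Fin n) → ℝ}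
    {x : EuclideanSpace ℝ (Fin n)} (hu : ContDiffAt ℝ ∞ u x) (hx : (hess u x).det ≠ 0)
    (hB : Bf S u x ≠ 0) (i : Fin n) : ContDiffAt ℝ ∞ (Yf S t u i) x :=
  (contDiffAt_wt hu hx hB).mul (ContDiffAt.sum fun j _ => (contDiffAt_hess_inv hu hx i j).mul
    ((contDiffAt_const.mul (contDiffAt_av hu hB j)).add (contDiffAt_bv hu hx hB j)))

theorem contDiffAt_ip {u : EuclideanSpace ℝ (Fin n) → ℝ} {x : EuclideanSpace ℝ (Fin n)}
    {ξ ζ : EuclideanSpace ℝ (Fin n) → Fin n → ℝ}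
    (hu : ContDiffAt ℝ ∞ u x) (hx : (hess u x).det ≠ 0)
    (hξ : ∀ i, ContDiffAt ℝ ∞ (fun y => ξ y i) x) (hζ : ∀ i, ContDiffAt ℝ ∞ (fun y => ζ y i) x) :
    ContDiffAt ℝ ∞ (fun y => ip u y (ξ y) (ζ y)) x :=
  ContDiffAt.sum fun i _ => ContDiffAt.sum fun j _ =>
    ((contDiffAt_hess_inv hu hx i j).mul (hξ i)).mul (hζ j)

end Vale.Agent.P252.H888
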