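import Mathlib
import Vale.Agent.P252.R.Spec

/-! Elementary facts on `BaseK` sets and linear maps adapted to a functional. -/

open scoped ContDiff Topology
open Filter MeasureTheory

namespace Vale.Agent.P252.H888

open Vale.Agent.P252.R

variable {n : ℕ}

/-- a linear automorphism adapted to a functional `w` and a vector `v` with `w·v = 1` -/
theorem exists_adapted (i0 : Fin n) (w : Fin n → ℝ) (v : En n) (hv : ∑ i, w i * v i = 1) :
    ∃ T : En n ≃L[ℝ] En n, T (EuclideanSpace.single i0 1) = v ∧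
      ∀ x, ∑ i, w i * (T x) i = x i0 := by
  classical
  -- the two functionals
  let φ : En n →ₗ[ℝ] ℝ := ∑ i, w i • (EuclideanSpace.proj i : En n →L[ℝ] ℝ).toLinearMap
  let ψ : En n →ₗ[ℝ] ℝ := (EuclideanSpace.proj i0 : En n →L[ℝ] ℝ).toLinearMap
  have hφ : ∀ x, φ x = ∑ i, w i * x i := by
    intro x
    simp [φ]
  have hψ : ∀ x, ψ x = x i0 := fun x => rfl
  have hφv : φ v = 1 := by rw [hφ, hv]
  have hψe : ψ (EuclideanSpace.single i0 1) = 1 := by simp [hψ]
  have hφ0 : φ ≠ 0 := by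
    intro h; rw [h] at hφv; simp at hφv
  have hψ0 : ψ ≠ 0 := by
    intro h; rw [h] at hψe; simp at hψe
  have hfr : Module.finrank ℝ (LinearMap.ker ψ) = Module.finrank ℝ (LinearMap.ker φ) := by
    have h1 := Module.Dual.finrank_ker_add_one_of_ne_zero (f := φ) hφ0
    have h2 := Module.Dual.finrank_ker_add_one_of_ne_zero (f := ψ) hψ0
    omega
  let e : LinearMap.ker ψ ≃ₗ[ℝ] LinearMap.ker φ := LinearEquiv.ofFinrankEq _ _ hfr
  let pr : En n →ₗ[ℝ] LinearMap.ker ψ :=
    (LinearMap.id - ψ.smulRight (EuclideanSpace.single i0 1)).codRestrict (LinearMap.ker ψ) (by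
      intro x
      rw [LinearMap.mem_ker, LinearMap.sub_apply, LinearMap.smulRight_apply, map_sub, map_smul,
        hψe]
      simp)
  have hpr : ∀ x, ((pr x : LinearMap.ker ψ) : En n) = x - ψ x • EuclideanSpace.single i0 1 :=
    fun x => rfl
  let f : En n →ₗ[ℝ] En n := ψ.smulRight v + (LinearMap.ker φ).subtype ∘ₗ e.toLinearMap ∘ₗ pr
  have hf : ∀ x, f x = ψ x • v + (e (pr x) : En n) := fun x => rfl
  have hφf : ∀ x, φ (f x) = ψ x := by
    intro x
    rw [hf, map_add, map_smul, hφv, LinearMap.mem_ker.1 (e (pr x)).2]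
    simp
  have hinj : Function.Injective f := by
    rw [← LinearMap.ker_eq_bot, LinearMap.ker_eq_bot']
    intro x hx
    have h1 : ψ x = 0 := by rw [← hφf, hx, map_zero]
    have h2 : (e (pr x) : En n) = 0 := by
      have := hf x
      rw [hx, h1, zero_smul, zero_add] at this
      exact this.symm
    have h3 : pr x = 0 := by
      have : e (pr x) = 0 := by ext1; exact h2
      simpa using this
    have h4 := hpr x
    rw [h3, h1, zero_smul, sub_zero] at h4
    exact h4.symm
  let T := (LinearEquiv.ofInjectiveEndo f hinj).toContinuousLinearEquiv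
  have hT : ∀ x, T x = f x := fun x => rfl
  refine ⟨T, ?_, fun x => ?_⟩
  · rw [hT, hf, hψe, one_smul]
    have : pr (EuclideanSpace.single i0 1) = 0 := by
      ext1
      rw [hpr, hψe, one_smul, sub_self]
      rfl
    rw [this, map_zero]
    simp
  · rw [← hφ, hT, hφf, hψ]

namespace BaseK

variable {K : Set (En n × ℝ)}

theorem smul_mem (h : BaseK n K) {p : En n × ℝ} (hp : p ∈ K) {s : ℝ} (h0 : 0 ≤ s) (h1 : s ≤ 1) :
    s • p ∈ K := by
  have := h.cvx h.zero_mem hp (a := 1 - s) (b := s) (by linarith) h0 (by ring)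
  simpa using this

/-- the scaled box -/
theorem boxM (h : BaseK n K) {M : ℝ} (hM : 1 ≤ M) {p : En n × ℝ} (hp : p ∈ K) (hz : p.2 ≤ M)
    (j : Fin n) : |p.1 j| ≤ M := by
  have hM0 : 0 < M := by linarith
  have h1 := smul_mem h hp (s := M⁻¹) (by positivity) (inv_le_one_of_one_le₀ hM)
  have h2 := h.box _ h1 (by
    show M⁻¹ * p.2 ≤ 1
    rw [inv_mul_le_iff₀ hM0]; linarith) j
  have h3 : |M⁻¹ * p.1 j| ≤ 1 := h2
  rw [abs_mul, abs_of_pos (inv_pos.2 hM0), inv_mul_le_iff₀ hM0] at h3
  linarith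

theorem isCompact_le (h : BaseK n K) (M : ℝ) : IsCompact {p | p ∈ K ∧ p.2 ≤ M} := by
  have hcl : IsClosed {p | p ∈ K ∧ p.2 ≤ M} :=
    h.closed.inter (isClosed_le continuous_snd continuous_const)
  refine Metric.isCompact_of_isClosed_isBounded hcl ?_
  rw [isBounded_iff_forall_norm_le]
  refine ⟨(Real.sqrt (∑ _i : Fin n, (max 1 M) ^ 2)) + max 1 M, fun p hp => ?_⟩
  have hb := fun j => boxM h (M := max 1 M) (le_max_left _ _) hp.1 (hp.2.trans (le_max_right _ _)) j
  have h1 : ‖p.1‖ ≤ Real.sqrt (∑ _i : Fin n, (max 1 M) ^ 2) := by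
    rw [EuclideanSpace.norm_eq]
    refine Real.sqrt_le_sqrt (Finset.sum_le_sum fun i _ => ?_)
    rw [Real.norm_eq_abs]
    exact pow_le_pow_left₀ (abs_nonneg _) (hb i) 2
  have h2 : ‖p.2‖ ≤ max 1 M := by
    rw [Real.norm_eq_abs, abs_of_nonneg (h.nonneg_z p hp.1)]
    exact hp.2.trans (le_max_right _ _)
  have h3 : 0 ≤ Real.sqrt (∑ _i : Fin n, (max 1 M) ^ 2) := Real.sqrt_nonneg _
  have h4 : (0 : ℝ) ≤ max 1 M := le_trans zero_le_one (le_max_left _ _)
  rw [Prod.norm_def]
  exact max_le (by linarith) (by linarith)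

/-- the simplex in `K` -/
theorem simplex_mem (h : BaseK n K) {x : En n} (hx : ∀ j, 0 ≤ x j) (hs : ∑ j, x j ≤ 1) :
    (x, ∑ j, x j) ∈ K := by
  classical
  have := h.cvx.sum_mem (t := (Finset.univ : Finset (Option (Fin n))))
    (w := fun o => o.elim (1 - ∑ j, x j) fun j => x j)
    (z := fun o => o.elim 0 fun j => (EuclideanSpace.single j 1, (1 : ℝ)))
    (by
      intro o _
      cases o with
      | none => simpa using hs
      | some j => exact hx j)
    (by rw [Fintype.sum_option]; simp)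
    (by
      intro o _
      cases o with
      | none => exact h.zero_mem
      | some j => exact h.simplex j)
  rw [Fintype.sum_option] at this
  simp only [Option.elim_none, Option.elim_some, smul_zero, zero_add] at this
  convert this using 1
  ext1
  · rw [Prod.fst_sum]
    ext i
    simp [Pi.single_apply]
  · rw [Prod.snd_sum]
    simp

/-- a point around which `K` contains a half cylinder -/
theorem inner (h : BaseK n K) : ∃ (q : En n × ℝ) (r : ℝ), 0 < r ∧ q ∈ K ∧
    ∀ p : En n × ℝ, ‖p.1 - q.1‖ ≤ r → q.2 - r ≤ p.2 → p ∈ K := by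
  have hn : (0 : ℝ) < (n : ℝ) + 1 := by positivity
  set c : ℝ := 1 / ((n : ℝ) + 1) with hc
  have hc0 : 0 < c := by positivity
  have hcn : c * ((n : ℝ) + 1) = 1 := by rw [hc]; field_simp
  have hmain : ∀ p : En n × ℝ, ‖p.1 - WithLp.toLp 2 (fun _ => c)‖ ≤ c ^ 2 → 2 - c ^ 2 ≤ p.2 →
      p ∈ K := by
    intro p hp hz
    have hj : ∀ j, |p.1 j - c| ≤ c ^ 2 := by
      intro j
      have := (PiLp.norm_apply_le (p.1 - WithLp.toLp 2 (fun _ => c)) j).trans hp
      simpa using this
    have hc1 : c ≤ 1 := by rw [hc, div_le_one hn]; linarith [(Nat.cast_nonneg n : (0 : ℝ) ≤ n)]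
    have h1 : ∀ j, 0 ≤ p.1 j := by
      intro j
      have := (abs_le.1 (hj j)).1
      nlinarith
    have h2 : ∑ j, p.1 j ≤ 1 := by
      calc ∑ j, p.1 j ≤ ∑ _j : Fin n, (c + c ^ 2) :=
            Finset.sum_le_sum fun j _ => by linarith [(abs_le.1 (hj j)).2]
        _ = n * (c + c ^ 2) := by simp; ring
        _ ≤ 1 := by nlinarith [(Nat.cast_nonneg n : (0 : ℝ) ≤ n)]
    have h3 := simplex_mem h h1 h2
    have h4 := h.up _ h3 (p.2 - ∑ j, p.1 j) (by nlinarith)
    simpa using h4
  refine ⟨(WithLp.toLp 2 (fun _ => c), 2), c ^ 2, by positivity, ?_, hmain⟩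
  exact hmain _ (by simp; positivity) (by simp; positivity)

end BaseK

end Vale.Agent.P252.H888
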