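import Mathlib
import Vale.Agent.P252.H888.Star2

open MeasureTheory Filter Topology
open scoped ContDiff

namespace Vale.Agent.P252.H888

variable {n : ℕ}

/-! ### the inner product `ip` -/

theorem ip_eq (u : EuclideanSpace ℝ (Fin n) → ℝ) (x : EuclideanSpace ℝ (Fin n))
    (ξ ζ : Fin n → ℝ) : ip u x ξ ζ = ξ ⬝ᵥ ((hess u x)⁻¹).mulVec ζ := by
  unfold ip dotProduct Matrix.mulVec dotProduct
  refine Finset.sum_congr rfl fun i _ => ?_
  rw [Finset.mul_sum]
  exact Finset.sum_congr rfl fun j _ => by ring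

theorem ip_nonneg {u : EuclideanSpace ℝ (Fin n) → ℝ} {x : EuclideanSpace ℝ (Fin n)}
    (hx : (hess u x).PosDef) (ξ : Fin n → ℝ) : 0 ≤ ip u x ξ ξ := by
  rw [ip_eq]
  have := hx.inv.posSemidef.dotProduct_mulVec_nonneg ξ
  simpa using this

theorem ip_comm {u : EuclideanSpace ℝ (Fin n) → ℝ} {x : EuclideanSpace ℝ (Fin n)}
    (hx : (hess u x).PosDef) (ξ ζ : Fin n → ℝ) : ip u x ξ ζ = ip u x ζ ξ := by
  have hsym : ∀ i j, (hess u x)⁻¹ i j = (hess u x)⁻¹ j i := by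
    intro i j
    have := hx.inv.isHermitian.apply i j
    simpa using this.symm
  unfold ip
  rw [Finset.sum_comm]
  refine Finset.sum_congr rfl fun i _ => Finset.sum_congr rfl fun j _ => ?_
  rw [hsym j i]; ring

theorem ip_add_right (u : EuclideanSpace ℝ (Fin n) → ℝ) (x : EuclideanSpace ℝ (Fin n))
    (ξ ζ ζ' : Fin n → ℝ) : ip u x ξ (ζ + ζ') = ip u x ξ ζ + ip u x ξ ζ' := by
  simp only [ip_eq, Matrix.mulVec_add, dotProduct_add]

theorem ip_smul_right (u : EuclideanSpace ℝ (Fin n) → ℝ) (x : EuclideanSpace ℝ (Fin n))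
    (c : ℝ) (ξ ζ : Fin n → ℝ) : ip u x ξ (c • ζ) = c * ip u x ξ ζ := by
  simp only [ip_eq, Matrix.mulVec_smul, dotProduct_smul, smul_eq_mul]

theorem ip_add_left (u : EuclideanSpace ℝ (Fin n) → ℝ) (x : EuclideanSpace ℝ (Fin n))
    (ξ ξ' ζ : Fin n → ℝ) : ip u x (ξ + ξ') ζ = ip u x ξ ζ + ip u x ξ' ζ := by
  simp only [ip_eq, add_dotProduct]

theorem ip_smul_left (u : EuclideanSpace ℝ (Fin n) → ℝ) (x : EuclideanSpace ℝ (Fin n))
    (c : ℝ) (ξ ζ : Fin n → ℝ) : ip u x (c • ξ) ζ = c * ip u x ξ ζ := by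
  simp only [ip_eq, smul_dotProduct, smul_eq_mul]

theorem ip_cauchy {u : EuclideanSpace ℝ (Fin n) → ℝ} {x : EuclideanSpace ℝ (Fin n)}
    (hx : (hess u x).PosDef) (ξ ζ : Fin n → ℝ) :
    ip u x ξ ζ ^ 2 ≤ ip u x ξ ξ * ip u x ζ ζ := by
  have h : ∀ s : ℝ, 0 ≤ ip u x ζ ζ * (s * s) + (2 * ip u x ξ ζ) * s + ip u x ξ ξ := by
    intro s
    have := ip_nonneg hx (ξ + s • ζ)
    rw [ip_add_left, ip_add_right, ip_add_right, ip_smul_left, ip_smul_right, ip_smul_left,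
      ip_smul_right, ip_comm hx ζ ξ] at this
    linarith
  have := discrim_le_zero h
  unfold discrim at this
  nlinarith

/-- the pairing with the field is the inner product -/
theorem sum_mul_inv_mul (u : EuclideanSpace ℝ (Fin n) → ℝ) (x : EuclideanSpace ℝ (Fin n))
    (ξ ζ : Fin n → ℝ) (c : ℝ) :
    ∑ i, ξ i * (c * ∑ j, (hess u x)⁻¹ i j * ζ j) = c * ip u x ξ ζ := by
  unfold ip
  rw [Finset.mul_sum]
  refine Finset.sum_congr rfl fun i _ => ?_
  rw [Finset.mul_sum, Finset.mul_sum, Finset.mul_sum]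
  exact Finset.sum_congr rfl fun j _ => by ring

/-! ### positivity of the quadratic form -/

/-- numerical part: for `1 ≤ k ≤ n ≤ 9` and `t = k/n`. -/
theorem form_pos {k m : ℕ} (hk : 1 ≤ k) (hkm : k ≤ m) (hm : m ≤ 9) {A C X : ℝ} (hA : 0 ≤ A)
    (hC : 0 ≤ C) (hX : X ^ 2 ≤ A * C) (h0 : k = m → A = 0) :
    (1 / 32) * (A + C) ≤ (m * ((k : ℝ) / m) / 2) * A + (m / 2 : ℝ) * C
      - ((((k : ℝ) / m) * (m + 2) - (m - 2)) / 2) * X := by
  rcases eq_or_lt_of_le hkm with h | h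
  · have hA0 : A = 0 := h0 h
    subst hA0
    have hX0 : X = 0 := by nlinarith
    subst hX0
    have : (1 : ℝ) ≤ m := by exact_mod_cast (hk.trans hkm)
    nlinarith
  · -- `α A + β C - γ X ≥ 0` as soon as `γ² ≤ 4 α β`
    have key : ∀ α β γ : ℝ, 0 ≤ α → 0 ≤ β → γ ^ 2 ≤ 4 * α * β → 0 ≤ α * A + β * C - γ * X := by
      intro α β γ hα hβ hγ
      have h1 : γ * X ≤ |γ * X| := le_abs_self _
      have h2 : (γ * X) ^ 2 ≤ (α * A + β * C) ^ 2 := by
        have : (γ * X) ^ 2 ≤ 4 * α * β * (A * C) := by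
          rw [mul_pow]
          exact mul_le_mul hγ hX (sq_nonneg _) (by positivity)
        nlinarith [sq_nonneg (α * A - β * C)]
      have h3 : |γ * X| ≤ α * A + β * C := abs_le_of_sq_le_sq h2 (by positivity)
      linarith
    have hfin : 0 ≤ (m * ((k : ℝ) / m) / 2 - 1 / 32) * A + ((m / 2 : ℝ) - 1 / 32) * C
        - ((((k : ℝ) / m) * (m + 2) - (m - 2)) / 2) * X := by
      interval_cases m <;> interval_cases k <;>
        · apply key <;> norm_num
    linarith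

end Vale.Agent.P252.H888
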