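import Mathlib
import Vale.Agent.P252.H888.Star3
import Vale.Agent.P252.R.Spec

open MeasureTheory Filter Topology
open scoped ContDiff

namespace Vale.Agent.P252.H888

variable {n : ℕ}

/-- the set of the first `k` indices -/
def Sk (n k : ℕ) : Finset (Fin n) := Finset.univ.filter fun i => i.val < k

theorem card_Sk {k : ℕ} (h : k ≤ n) : (Sk n k).card = k := by
  unfold Sk
  rw [Fin.card_filter_val_lt]
  omega

theorem Bf_Sk (k : ℕ) (u : EuclideanSpace ℝ (Fin n) → ℝ) : Bf (Sk n k) u = R.Bf k u := by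
  funext x
  unfold Bf R.Bf Sk
  rw [Finset.sum_filter]

/-- the integral inequality, from the divergence identity on the support of the cut-off -/
theorem star_core {S : Finset (Fin n)} {u η : EuclideanSpace ℝ (Fin n) → ℝ}
    {Ω : Set (EuclideanSpace ℝ (Fin n))} (hΩ : IsOpen Ω) (hu : ContDiffOn ℝ ∞ u Ω)
    (hpos : ∀ x ∈ Ω, (hess u x).PosDef) (hη : ContDiff ℝ ∞ η) (hc : HasCompactSupport η)
    (hsub : tsupport η ⊆ Ω) (hB : ∀ x ∈ tsupport η, 0 < Bf S u x) (hk : 1 ≤ S.card)
    (hkn : S.card ≤ n) (hn : n ≤ 9)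
    (hid : ∀ x ∈ tsupport η, StarIdentityAt S ((S.card : ℝ) / n) u x) :
    ((S.card : ℝ) ^ 2 / n) * ∫ x, η x ^ 2 * wt S u (-(n : ℝ) / 2) x ≤
      128 * ∫ x, wt S u (-((n : ℝ) - 2) / 2) x * ip u x (R.gr η x) (R.gr η x) := by
  set k := S.card with hkdef
  set t : ℝ := (k : ℝ) / n with ht
  have hn1 : 1 ≤ n := hk.trans hkn
  have hn0 : (0 : ℝ) < n := by exact_mod_cast hn1
  have hkR : (1 : ℝ) ≤ k := by exact_mod_cast hk
  have hknR : (k : ℝ) ≤ n := by exact_mod_cast hkn
  have ht0 : 0 ≤ t := by positivity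
  have ht1 : t ≤ 1 := by rw [ht, div_le_one hn0]; exact hknR
  have hsm : ∀ x ∈ tsupport η, ContDiffAt ℝ ∞ u x := fun x hx =>
    hu.contDiffAt (hΩ.mem_nhds (hsub hx))
  have hdet : ∀ x ∈ tsupport η, 0 < (hess u x).det := fun x hx => (hpos x (hsub hx)).det_pos
  have hwt : ∀ p, ∀ x ∈ tsupport η, 0 < wt S u p x := fun p x hx =>
    mul_pos (Real.sqrt_pos.2 (hdet x hx)) (Real.rpow_pos_of_pos (hB x hx) _)
  have hη1 : ContDiff ℝ 1 η := hη.of_le (by exact_mod_cast le_top)
  have hηd : ∀ i x, ContDiffAt ℝ ∞ (fun y => R.gr η y i) x := fun i x =>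
    contDiffAt_pd hη.contDiffAt i
  have hz1 : ∀ (i : Fin n) x, x ∉ tsupport η → pd i η x = 0 := by
    intro i x hx
    have : fderiv ℝ η x = 0 := by
      by_contra h
      exact hx (tsupport_fderiv_subset ℝ (subset_tsupport _ h))
    simp [pd, this]
  -- the four functions
  set P : EuclideanSpace ℝ (Fin n) → ℝ := fun x => ((k : ℝ) ^ 2 / n) * wt S u (-(n : ℝ) / 2) x
    with hP
  set Q : EuclideanSpace ℝ (Fin n) → ℝ :=
    fun x => wt S u (-((n : ℝ) - 2) / 2) x * qform S t u x with hQ
  set W : EuclideanSpace ℝ (Fin n) → ℝ :=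
    fun x => wt S u (-((n : ℝ) - 2) / 2) x * ip u x (R.gr η x) (R.gr η x) with hW
  have hqform : ∀ x ∈ tsupport η,
      (1 / 32) * (ip u x (av S u x) (av S u x) + ip u x (bv S u x) (bv S u x)) ≤ qform S t u x := by
    intro x hx
    have hp := hpos x (hsub hx)
    have h0 : k = n → ip u x (av S u x) (av S u x) = 0 := by
      intro hkn'
      have hS : S = Finset.univ := Finset.eq_univ_of_card _ (by simpa using hkn')
      have : av S u x = 0 := by
        funext i
        simp [av, at', hS]
      rw [this]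
      simp [ip]
    exact form_pos hk hkn hn (ip_nonneg hp _) (ip_nonneg hp _) (ip_cauchy hp _ _) h0
  have hq0 : ∀ x ∈ tsupport η, 0 ≤ qform S t u x := by
    intro x hx
    have hp := hpos x (hsub hx)
    have := hqform x hx
    have h1 := ip_nonneg hp (av S u x)
    have h2 := ip_nonneg hp (bv S u x)
    linarith
  have hWz : ∀ x, x ∉ tsupport η → W x = 0 := by
    intro x hx
    have : R.gr η x = 0 := by
      funext i
      exact hz1 i x hx
    rw [hW]
    simp [this, ip]
  have hWsm : ∀ x ∈ tsupport η, ContDiffAt ℝ ∞ W x := fun x hx =>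
    (contDiffAt_wt (hsm x hx) (hdet x hx).ne' (hB x hx).ne').mul
      (contDiffAt_ip (hsm x hx) (hdet x hx).ne' (fun i => hηd i x) (fun i => hηd i x))
  have hWi : Integrable W := by
    have hsubW : tsupport W ⊆ tsupport η := by
      apply closure_minimal _ (isClosed_tsupport η)
      intro x hx
      by_contra h
      exact hx (hWz x h)
    have hcont : Continuous W :=
      continuous_of_tsupport fun x hx => (hWsm x (hsubW hx)).continuousAt
    exact hcont.integrable_of_hasCompactSupport
      (hc.isCompact.of_isClosed_subset (isClosed_tsupport _) hsubW)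
  have hmain := caccioppoli (η := η) (Y := Yf S t u) (P := P) (Q := Q) (W := W) (K := 64)
    (by norm_num) hη1 hc
    (fun i x hx => (contDiffAt_Yf (hsm x hx) (hdet x hx).ne' (hB x hx).ne' i).of_le
      (by exact_mod_cast le_top))
    (fun x hx => ((contDiffAt_wt (hsm x hx) (hdet x hx).ne' (hB x hx).ne').continuousAt).const_mul _)
    (fun x hx => ?_) hWi (fun x hx => mul_nonneg (hwt _ x hx).le (hq0 x hx)) (fun x => ?_)
    (fun x hx => ?_) (fun x hx => ?_)
  · have hQpos : 0 ≤ ∫ x, η x ^ 2 * Q x := by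
      refine integral_nonneg fun x => ?_
      by_cases hx : x ∈ tsupport η
      · exact mul_nonneg (sq_nonneg _) (mul_nonneg (hwt _ x hx).le (hq0 x hx))
      · simp [image_eq_zero_of_notMem_tsupport hx]
    have hPint : ∫ x, η x ^ 2 * P x
        = ((k : ℝ) ^ 2 / n) * ∫ x, η x ^ 2 * wt S u (-(n : ℝ) / 2) x := by
      rw [← integral_const_mul]
      refine integral_congr_ae (Eventually.of_forall fun x => ?_)
      simp only [hP]; ring
    rw [hPint] at hmain
    linarith
  · -- continuity of `Q`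
    have h1 := contDiffAt_ip (hsm x hx) (hdet x hx).ne' (ξ := fun y => av S u y)
      (ζ := fun y => av S u y) (fun i => contDiffAt_av (hsm x hx) (hB x hx).ne' i)
      (fun i => contDiffAt_av (hsm x hx) (hB x hx).ne' i)
    have h2 := contDiffAt_ip (hsm x hx) (hdet x hx).ne' (ξ := fun y => bv S u y)
      (ζ := fun y => bv S u y)
      (fun i => contDiffAt_bv (hsm x hx) (hdet x hx).ne' (hB x hx).ne' i)
      (fun i => contDiffAt_bv (hsm x hx) (hdet x hx).ne' (hB x hx).ne' i)
    have h3 := contDiffAt_ip (hsm x hx) (hdet x hx).ne' (ξ := fun y => av S u y)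
      (ζ := fun y => bv S u y)
      (fun i => contDiffAt_av (hsm x hx) (hB x hx).ne' i)
      (fun i => contDiffAt_bv (hsm x hx) (hdet x hx).ne' (hB x hx).ne' i)
    exact ((contDiffAt_wt (hsm x hx) (hdet x hx).ne' (hB x hx).ne').continuousAt).mul
      ((((h1.continuousAt).const_mul _).add ((h2.continuousAt).const_mul _)).sub
        ((h3.continuousAt).const_mul _))
  · -- `W ≥ 0`
    by_cases hx : x ∈ tsupport η
    · exact mul_nonneg (hwt _ x hx).le (ip_nonneg (hpos x (hsub hx)) _)
    · rw [hWz x hx]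
  · -- the divergence
    rw [hid x hx]
    have : t * ((n : ℝ) - k) - k = -((k : ℝ) ^ 2 / n) := by
      rw [ht]; field_simp; ring
    rw [this]
    apply le_of_eq
    simp only [hP, hQ]; ring
  · -- Cauchy-Schwarz
    have hp := hpos x (hsub hx)
    have h1 : ∑ i, pd i η x * Yf S t u i x
        = wt S u (-((n : ℝ) - 2) / 2) x * ip u x (R.gr η x) (t • av S u x + bv S u x) := by
      rw [← sum_mul_inv_mul]
      rfl
    rw [h1, mul_pow]
    have h2 := ip_cauchy hp (R.gr η x) (t • av S u x + bv S u x)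
    have hA := ip_nonneg hp (av S u x)
    have hC := ip_nonneg hp (bv S u x)
    have hg := ip_nonneg hp (R.gr η x)
    have h3 : ip u x (t • av S u x + bv S u x) (t • av S u x + bv S u x)
        ≤ 2 * (ip u x (av S u x) (av S u x) + ip u x (bv S u x) (bv S u x)) := by
      have hm := ip_nonneg hp (t • av S u x + (-1 : ℝ) • bv S u x)
      rw [ip_add_left, ip_add_right, ip_add_right, ip_smul_left, ip_smul_right, ip_smul_left,
        ip_smul_right, ip_smul_left, ip_smul_right, ip_smul_left, ip_smul_right,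
        ip_comm hp (bv S u x) (av S u x)] at hm
      rw [ip_add_left, ip_add_right, ip_add_right, ip_smul_left, ip_smul_right, ip_smul_left,
        ip_smul_right, ip_comm hp (bv S u x) (av S u x)]
      have ht2 : t * t ≤ 1 := by nlinarith
      nlinarith [mul_le_mul_of_nonneg_right ht2 hA]
    have h4 : ip u x (t • av S u x + bv S u x) (t • av S u x + bv S u x)
        ≤ 64 * qform S t u x := by
      have := hqform x hx
      linarith
    have hw := hwt (-((n : ℝ) - 2) / 2) x hx
    calc wt S u (-((n : ℝ) - 2) / 2) x ^ 2 *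
          ip u x (R.gr η x) (t • av S u x + bv S u x) ^ 2
        ≤ wt S u (-((n : ℝ) - 2) / 2) x ^ 2 *
          (ip u x (R.gr η x) (R.gr η x) * (64 * qform S t u x)) := by
            refine mul_le_mul_of_nonneg_left (h2.trans ?_) (sq_nonneg _)
            exact mul_le_mul_of_nonneg_left h4 hg
      _ = 64 * Q x * W x := by simp only [hQ, hW]; ring

end Vale.Agent.P252.H888
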