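import Mathlib
import Vale.Agent.P252.H888.Star4

open MeasureTheory Filter Topology
open scoped ContDiff

namespace Vale.Agent.P252.H888

variable {n : ℕ}

theorem ip_eq_R (u : EuclideanSpace ℝ (Fin n) → ℝ) (x : EuclideanSpace ℝ (Fin n))
    (ξ ζ : Fin n → ℝ) : ip u x ξ ζ = R.ip u x ξ ζ := rfl

/-- `Stmt_star` from the divergence identity. -/
theorem star_of_identity {k : ℕ} (hn : n ≤ 9) (hk : 1 ≤ k) (hkn : k ≤ n)
    (hid : ∀ (Ω : Set (EuclideanSpace ℝ (Fin n))) (u : EuclideanSpace ℝ (Fin n) → ℝ),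
      R.AMLoc Ω u → ∀ x ∈ Ω, 0 < Bf (Sk n k) u x →
        StarIdentityAt (Sk n k) ((k : ℝ) / n) u x) : R.Stmt_star n k := by
  have hn0 : (0 : ℝ) < n := by exact_mod_cast (lt_of_lt_of_le hk hkn)
  have hk0 : (0 : ℝ) < k := by exact_mod_cast hk
  refine ⟨128 * n / (k : ℝ) ^ 2, by positivity, ?_⟩
  intro Ω u η hu hη hc hsub hB
  have hB' : ∀ x ∈ tsupport η, 0 < Bf (Sk n k) u x := by
    intro x hx
    rw [Bf_Sk]
    exact hB x hx
  have hcard : (Sk n k).card = k := card_Sk hkn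
  have key := star_core (S := Sk n k) hu.op hu.sm hu.pos hη hc hsub hB' (by rw [hcard]; exact hk)
    (by rw [hcard]; exact hkn) hn (fun x hx => by
      rw [hcard]
      exact hid Ω u hu x (hsub hx) (hB' x hx))
  rw [hcard] at key
  have e1 : ∀ p x, wt (Sk n k) u p x = R.Bf k u x ^ p * Real.sqrt (R.dt u x) := by
    intro p x
    unfold wt R.dt
    rw [Bf_Sk]
    ring
  simp only [e1, ip_eq_R] at key
  have h2 : ∫ x, η x ^ 2 * (R.Bf k u x ^ (-(n : ℝ) / 2) * Real.sqrt (R.dt u x))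
      ≤ ((k : ℝ) ^ 2 / n)⁻¹ * (128 * ∫ x, R.Bf k u x ^ (-((n : ℝ) - 2) / 2) *
        Real.sqrt (R.dt u x) * R.ip u x (R.gr η x) (R.gr η x)) := by
    rw [le_inv_mul_iff₀ (by positivity)]
    exact key
  refine h2.trans (le_of_eq ?_)
  field_simp

end Vale.Agent.P252.H888
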