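import Mathlib
import Vale.Agent.P252.H888.BaseFacts

/-! C4: a vertical supporting hyperplane that touches a `BaseK` set gives a wedge. -/

open scoped ContDiff Topology
open Filter MeasureTheory

namespace Vale.Agent.P252.H888

open Vale.Agent.P252.R

variable {n : ℕ}

theorem ones_one (i0 : Fin n) (h0 : i0.val = 0) : ones n 1 = EuclideanSpace.single i0 1 := by
  ext i
  simp only [ones, PiLp.single_apply]
  by_cases h : i = i0
  · subst h; simp [h0]
  · have : ¬ i.val < 1 := by
      intro h'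
      exact h (Fin.ext (by omega))
    simp [h, this]

theorem eq_smul_single (i0 : Fin n) (h0 : i0.val = 0) {x : En n}
    (hx : ∀ i : Fin n, 1 ≤ i.val → x i = 0) : x = x i0 • EuclideanSpace.single i0 (1 : ℝ) := by
  ext i
  by_cases h : i = i0
  · subst h; simp
  · have : 1 ≤ i.val := by
      by_contra h'
      exact h (Fin.ext (by omega))
    simp [hx i this, h]

theorem wall (n : ℕ) (hL : Stmt_limitWedge n 1) (hA : Stmt_admPull n) : Stmt_wall n := by
  intro K hK w c hw hge htouch
  have hn : 0 < n := by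
    rcases Nat.eq_zero_or_pos n with h | h
    · subst h
      exact absurd (Subsingleton.elim w 0) hw
    · exact h
  obtain ⟨i0, hi0⟩ : ∃ i0 : Fin n, i0.val = 0 := ⟨⟨0, hn⟩, rfl⟩
  set η : En n × ℝ → ℝ := fun p => ∑ i, w i * p.1 i - c with hη
  have hηc : Continuous η := by
    have : ∀ i, Continuous fun p : En n × ℝ => p.1 i := fun i =>
      (EuclideanSpace.proj i : En n →L[ℝ] ℝ).continuous.comp continuous_fst
    exact (continuous_finsetSum _ fun i _ => continuous_const.mul (this i)).sub continuous_const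
  have hη0 : ∀ p ∈ K, 0 ≤ η p := fun p hp => sub_nonneg.2 (hge p hp)
  obtain ⟨pt, hptK, hpt⟩ := htouch
  have hF : IsCompact ({p | p ∈ K ∧ p.2 ≤ pt.2} ∩ {p | η p = 0}) :=
    (BaseK.isCompact_le hK pt.2).inter_right (isClosed_eq hηc continuous_const)
  obtain ⟨ps, hps, hmin⟩ := hF.exists_isMinOn (f := fun p : En n × ℝ => p.2)
    ⟨pt, ⟨hptK, le_rfl⟩, by simp [hη, hpt]⟩ continuous_snd.continuousOn
  have hmin' : ∀ p ∈ K, η p = 0 → ps.2 ≤ p.2 := by
    intro p hp h0
    by_cases h : p.2 ≤ pt.2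
    · exact hmin (a := p) ⟨⟨hp, h⟩, h0⟩
    · have := hps.1.2
      push Not at h
      exact (this.trans h.le)
  have hpsK : ps ∈ K := hps.1.1
  have hηps : η ps = 0 := hps.2
  obtain ⟨q0, r, hr, hq0, hball⟩ := BaseK.inner hK
  -- `η q0 > 0`
  have hηq : 0 < η q0 := by
    have hw0 : 0 < ‖(WithLp.toLp 2 w : En n)‖ := by
      rw [norm_pos_iff]
      intro h
      exact hw (by
        funext i
        have := congrArg (fun z : En n => z i) h
        simpa using this)
    set s : ℝ := r / ‖(WithLp.toLp 2 w : En n)‖ with hs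
    have hs0 : 0 < s := by positivity
    have h1 : (q0.1 - s • (WithLp.toLp 2 w : En n), q0.2) ∈ K := by
      refine hball _ ?_ (by simpa using hr.le)
      have : q0.1 - s • (WithLp.toLp 2 w : En n) - q0.1 = -(s • (WithLp.toLp 2 w : En n)) := by
        abel
      simp only [this, norm_neg, norm_smul, Real.norm_eq_abs, abs_of_pos hs0]
      rw [hs, div_mul_cancel₀ _ hw0.ne']
    have h2 := hη0 _ h1
    have h3 : η (q0.1 - s • (WithLp.toLp 2 w : En n), q0.2)
        = η q0 - s * ∑ i, w i * w i := by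
      simp only [hη, Finset.mul_sum, PiLp.sub_apply, PiLp.smul_apply, smul_eq_mul]
      rw [sub_right_comm, ← Finset.sum_sub_distrib]
      congr 1
      exact Finset.sum_congr rfl fun i _ => by ring
    have h4 : 0 < ∑ i, w i * w i := by
      obtain ⟨i, hi⟩ := Function.ne_iff.1 hw
      exact Finset.sum_pos' (fun i _ => mul_self_nonneg _)
        ⟨i, Finset.mem_univ i, mul_self_pos.2 hi⟩
    rw [h3] at h2
    nlinarith [mul_pos hs0 h4]
  -- the scales
  set A : ℝ := 1 + |q0.2 - ps.2| with hA1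
  have hA0 : 0 < A := by positivity
  set σ : ℕ → ℝ := fun j => 1 / ((j : ℝ) + 1) / A with hσ
  have hσ0 : ∀ j, 0 < σ j := fun j => by simp only [hσ]; positivity
  have hσA : ∀ j, σ j * A ≤ 1 := by
    intro j
    simp only [hσ]
    rw [div_mul_cancel₀ _ hA0.ne', div_le_one (by positivity)]
    linarith [(Nat.cast_nonneg j : (0 : ℝ) ≤ j)]
  have hA2 : 1 ≤ A := by rw [hA1]; linarith [abs_nonneg (q0.2 - ps.2)]
  have hσ1 : ∀ j, σ j ≤ 1 := by
    intro j
    nlinarith [hσA j, hσ0 j]
  have hσz : ∀ j, σ j * (q0.2 - ps.2) ≤ 1 := by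
    intro j
    have h1 : q0.2 - ps.2 ≤ A := by rw [hA1]; linarith [le_abs_self (q0.2 - ps.2)]
    exact (mul_le_mul_of_nonneg_left h1 (hσ0 j).le).trans (hσA j)
  have hσt : Tendsto σ atTop (𝓝 0) := by
    have := (tendsto_one_div_add_atTop_nhds_zero_nat (𝕜 := ℝ)).div_const A
    rw [zero_div] at this
    exact this
  -- the linear maps
  have hex : ∀ j, ∃ T : En n ≃L[ℝ] En n,
      T (EuclideanSpace.single i0 1) = σ j • (q0.1 - ps.1) ∧
      ∀ x, ∑ i, w i * (T x) i = σ j * η q0 * x i0 := by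
    intro j
    have hne : σ j * η q0 ≠ 0 := (mul_pos (hσ0 j) hηq).ne'
    have hsum : ∑ i, w i * (q0.1 - ps.1) i = η q0 := by
      have : η q0 = η q0 - η ps := by rw [hηps, sub_zero]
      rw [this]
      simp only [hη, PiLp.sub_apply]
      rw [sub_sub_sub_cancel_right, ← Finset.sum_sub_distrib]
      exact Finset.sum_congr rfl fun i _ => by ring
    obtain ⟨T, h1, h2⟩ := exists_adapted i0 (fun i => (σ j * η q0)⁻¹ * w i)
      (σ j • (q0.1 - ps.1)) (by
        have : ∑ i, (σ j * η q0)⁻¹ * w i * (σ j • (q0.1 - ps.1)) i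
            = (σ j * η q0)⁻¹ * (σ j * ∑ i, w i * (q0.1 - ps.1) i) := by
          rw [Finset.mul_sum, Finset.mul_sum]
          refine Finset.sum_congr rfl fun i _ => ?_
          simp only [PiLp.smul_apply, smul_eq_mul]; ring
        rw [this, hsum, inv_mul_cancel₀ hne])
    refine ⟨T, h1, fun x => ?_⟩
    rw [← h2 x, Finset.mul_sum]
    refine Finset.sum_congr rfl fun i _ => ?_
    rw [← mul_assoc, ← mul_assoc, mul_inv_cancel₀ hne, one_mul]
  choose T hT0 hTw using hex
  have hηT : ∀ j (p : En n × ℝ), η (T j p.1 + ps.1, p.2 + ps.2) = σ j * η q0 * p.1 i0 := by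
    intro j p
    rw [← hTw j p.1]
    have : ∑ i, w i * (T j p.1) i = ∑ i, w i * (T j p.1) i + η ps := by rw [hηps, add_zero]
    rw [this]
    simp only [hη, PiLp.add_apply, mul_add, Finset.sum_add_distrib]
    ring
  refine hL (fun j => {p | (T j p.1 + ps.1, p.2 + ps.2) ∈ K}) (fun j => ?_) (fun j => ?_)
    (fun j => ?_) ?_ ?_ (fun j => ?_) (fun j => ?_)
  · -- closed
    have hcont : Continuous fun p : En n × ℝ => (T j p.1 + ps.1, p.2 + ps.2) := by fun_prop
    exact hK.closed.preimage hcont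
  · -- convex
    intro p hp q hq a b ha hb hab
    have := hK.cvx hp hq ha hb hab
    show (T j (a • p + b • q).1 + ps.1, (a • p + b • q).2 + ps.2) ∈ K
    convert this using 1
    ext1
    · simp only [Prod.fst_add, Prod.smul_fst, map_add, map_smul, smul_add]
      calc a • T j p.1 + b • T j q.1 + ps.1
          = a • T j p.1 + b • T j q.1 + (a + b) • ps.1 := by rw [hab, one_smul]
        _ = _ := by rw [add_smul]; abel
    · simp only [Prod.snd_add, Prod.smul_snd, smul_eq_mul]
      calc a * p.2 + b * q.2 + ps.2 = a * p.2 + b * q.2 + (a + b) * ps.2 := by rw [hab, one_mul]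
        _ = _ := by ring
  · -- admissible
    have := hA K (T j) ps.1 1 0 (-ps.2) one_pos hK.adm
    simpa [pull] using this
  · -- the open orthant
    intro p hp2 hp1 hp0
    have ha : 0 < p.1 i0 := hp1 i0 (by omega)
    have hx := eq_smul_single i0 hi0 hp0
    have ht1 : Tendsto (fun j => σ j * p.1 i0) atTop (𝓝 0) := by
      simpa using hσt.mul_const (p.1 i0)
    have ht2 : Tendsto (fun j => σ j * p.1 i0 * (q0.2 - ps.2)) atTop (𝓝 0) := by
      simpa using ht1.mul_const (q0.2 - ps.2)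
    filter_upwards [ht1.eventually_le_const (show (0 : ℝ) < 1 by norm_num),
      ht2.eventually_le_const hp2] with j h1 h2
    show (T j p.1 + ps.1, p.2 + ps.2) ∈ K
    have h3 : T j p.1 = (σ j * p.1 i0) • (q0.1 - ps.1) := by
      conv_lhs => rw [hx]
      rw [map_smul, hT0, smul_smul, mul_comm]
    have h4 := hK.cvx hpsK hq0 (a := 1 - σ j * p.1 i0) (b := σ j * p.1 i0) (by linarith)
      (mul_pos (hσ0 j) ha).le (by ring)
    have h5 := hK.up _ h4 (p.2 - σ j * p.1 i0 * (q0.2 - ps.2)) (by linarith)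
    convert h5 using 1
    ext1
    · rw [h3]
      simp only [Prod.fst_add, Prod.smul_fst]
      module
    · simp only [Prod.snd_add, Prod.smul_snd, smul_eq_mul]
      ring
  · -- lower bounds
    intro M δ hδ
    have hC : IsCompact {p | p ∈ K ∧ p.2 ≤ ps.2 - δ} := BaseK.isCompact_le hK _
    have hpos : ∃ m : ℝ, 0 < m ∧ ∀ q ∈ K, q.2 ≤ ps.2 - δ → m ≤ η q := by
      rcases Set.eq_empty_or_nonempty {p | p ∈ K ∧ p.2 ≤ ps.2 - δ} with he | hne
      · refine ⟨1, one_pos, fun q hq hz => ?_⟩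
        have : q ∈ ({p | p ∈ K ∧ p.2 ≤ ps.2 - δ} : Set (En n × ℝ)) := ⟨hq, hz⟩
        rw [he] at this
        exact absurd this (Set.notMem_empty _)
      · obtain ⟨q1, hq1, hm⟩ := hC.exists_isMinOn hne hηc.continuousOn
        refine ⟨η q1, ?_, fun q hq hz => hm (a := q) ⟨hq, hz⟩⟩
        rcases (hη0 q1 hq1.1).lt_or_eq with h | h
        · exact h
        · have := hmin' q1 hq1.1 h.symm
          have h' := hq1.2
          linarith
    obtain ⟨m, hm0, hm⟩ := hpos
    have ht : Tendsto (fun j => σ j * η q0 * M) atTop (𝓝 0) := by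
      simpa using (hσt.mul_const (η q0)).mul_const M
    filter_upwards [ht.eventually_lt_const hm0] with j hj p hp hz hM
    have hp0 : 0 ≤ p.1 i0 := by
      have h1 := hη0 _ hp
      rw [hηT] at h1
      exact nonneg_of_mul_nonneg_right h1 (mul_pos (hσ0 j) hηq)
    refine ⟨?_, fun i hi => ?_⟩
    · by_contra hcon
      push Not at hcon
      have h1 := hm _ hp (by show p.2 + ps.2 ≤ ps.2 - δ; linarith)
      rw [hηT] at h1
      have h2 : σ j * η q0 * p.1 i0 ≤ σ j * η q0 * M :=
        mul_le_mul_of_nonneg_left (hM i0 (by omega)) (mul_pos (hσ0 j) hηq).le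
      linarith
    · have : i = i0 := Fin.ext (by omega)
      rw [this]; linarith
  · -- bounded slice
    let Φ : (En n × ℝ) ≃ₜ (En n × ℝ) :=
      ((T j).toHomeomorph.trans (Homeomorph.addRight ps.1)).prodCongr (Homeomorph.addRight ps.2)
    have hΦ : ∀ p, Φ p = (T j p.1 + ps.1, p.2 + ps.2) := fun p => rfl
    have hc : IsCompact (Φ ⁻¹' {q | q ∈ K ∧ q.2 ≤ 1 + ps.2}) :=
      (Φ.isCompact_preimage).2 (BaseK.isCompact_le hK _)
    refine hc.isBounded.subset ?_
    rintro p ⟨hp, hp2, -⟩
    exact ⟨by rw [hΦ]; exact hp, by rw [hΦ]; simp [hp2]⟩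
  · -- the ball
    have hTn : 0 < ‖(T j : En n →L[ℝ] En n)‖ + 1 := by positivity
    refine ⟨σ j * r / (‖(T j : En n →L[ℝ] En n)‖ + 1), by
      have := hσ0 j
      positivity, fun y hy hny => ?_⟩
    show (T j (ones n 1 + y) + ps.1, 1 + ps.2) ∈ K
    have h1 : (q0.1 + (σ j)⁻¹ • T j y, q0.2) ∈ K := by
      refine hball _ ?_ (by simpa using hr.le)
      simp only [add_sub_cancel_left, norm_smul, norm_inv, Real.norm_eq_abs, abs_of_pos (hσ0 j)]
      rw [inv_mul_le_iff₀ (hσ0 j)]
      calc ‖T j y‖ ≤ ‖(T j : En n →L[ℝ] En n)‖ * ‖y‖ :=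
            (T j : En n →L[ℝ] En n).le_opNorm y
        _ ≤ (‖(T j : En n →L[ℝ] En n)‖ + 1) *
              (σ j * r / (‖(T j : En n →L[ℝ] En n)‖ + 1)) := by
            refine mul_le_mul (by linarith) hny (norm_nonneg _) hTn.le
        _ = σ j * r := by field_simp
    have h2 := hK.cvx hpsK h1 (a := 1 - σ j) (b := σ j) (by linarith [hσ1 j]) (hσ0 j).le (by ring)
    have h3 := hK.up _ h2 (1 - σ j * (q0.2 - ps.2)) (by linarith [hσz j])
    convert h3 using 1
    ext1
    · rw [ones_one i0 hi0, map_add, hT0]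
      simp only [Prod.fst_add, Prod.smul_fst, smul_add, smul_smul, mul_inv_cancel₀ (hσ0 j).ne',
        one_smul]
      module
    · simp only [Prod.snd_add, Prod.smul_snd, smul_eq_mul]
      ring

end Vale.Agent.P252.H888
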